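import Vale.Agent.P063.Graph
import Vale.Agent.P063.Assembly
import Vale.Agent.P063.Final

/-!
P063: the Friedgut–Kalai threshold-width conjecture, upper bound, for all uniformities `r ≥ 2`
(`r = 2` is the case of graph properties).
-/

namespace Vale.Agent.Results.P063.WidthUpper

open Vale.Agent.P063

theorem result :
    ∀ r : ℕ, 2 ≤ r → ∀ ε : ℝ, 0 < ε → ε < 1 / 2 →
      ∃ C : ℝ, 0 < C ∧ ∀ n : ℕ, r ≤ n → ∀ P : Set (HG n r),
        IsProperty P → IsUpperSet P → P.Nonempty → P ≠ Set.univ →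
          width P ε ≤ C * (Real.log n) ^ (-((r : ℝ) / ((r : ℝ) - 1))) :=
  fun r hr ε hε0 hε1 => width_of_influence r hr (influence_bound r hr) ε hε0 hε1

end Vale.Agent.Results.P063.WidthUpper
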